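import Vale.Agent.P323.PP
import Vale.Agent.P323.NAC

/-- There is a model of ZF in which the Partition Principle holds and the Axiom of Choice fails. -/
theorem Vale.Agent.Results.P323.PPnotAC.result :
    ∃ (M : Type) (E : M → M → Prop),
      Vale.Agent.P323.IsZF E ∧ Vale.Agent.P323.PP E ∧ ¬Vale.Agent.P323.AC E := by
  obtain ⟨M, E, ⟨x0⟩, H⟩ := Vale.Agent.P323.exists_model Vale.Agent.P323.Cond.base
  exact ⟨M, E, Vale.Agent.P323.isZF_of x0 H,
    Vale.Agent.P323.pp_of H Vale.Agent.P323.Cond.pp_core,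
    Vale.Agent.P323.not_ac_of x0 H Vale.Agent.P323.Cond.nac_core⟩
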